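import Mathlib

/-! # P317: common bases when one matroid has large girth -/

namespace Vale.P317

open Finset

variable {α : Type*} [Fintype α] [DecidableEq α]

/-- the properties of the bases of a matroid that are used -/
structure BF (β : Finset α → Prop) : Prop where
  card_eq : ∀ {B C}, β B → β C → B.card = C.card
  exch : ∀ {B C x}, β B → β C → x ∈ B → x ∉ C →
    ∃ y, y ∈ C ∧ y ∉ B ∧ β (insert y (B.erase x))
  ext : ∀ {I B C}, β B → I ⊆ B → β C → ∃ B', β B' ∧ I ⊆ B' ∧ B' ⊆ I ∪ C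
  aug : ∀ {I J B C}, β B → I ⊆ B → β C → J ⊆ C → I.card < J.card →
    ∃ e, e ∈ J ∧ e ∉ I ∧ ∃ D, β D ∧ insert e I ⊆ D

variable {β β₁ β₂ : Finset α → Prop}

omit [Fintype α] in
theorem BF.extend (h : BF β) {B C I : Finset α} {y : α} (hC : β C) (hy : y ∉ C) (hI : I ⊆ C)
    (hB : β B) (hIB : insert y I ⊆ B) : ∃ x, x ∈ C ∧ x ∉ I ∧ β (insert y (C.erase x)) := by
  obtain ⟨B', hB', h1, h2⟩ := h.ext hB hIB hC
  have hy' : y ∈ B' := h1 (mem_insert_self _ _)
  have hsub : B' ⊆ insert y C := by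
    intro z hz
    rcases mem_union.1 (h2 hz) with h3 | h3
    · rcases mem_insert.1 h3 with h4 | h4
      · rw [h4]; exact mem_insert_self _ _
      · exact mem_insert_of_mem (hI h4)
    · exact mem_insert_of_mem h3
  have hc : B'.card = C.card := h.card_eq hB' hC
  have h5 : (insert y C \ B').card = 1 := by
    rw [card_sdiff_of_subset hsub, card_insert_of_notMem hy, hc]
    omega
  obtain ⟨x, hx⟩ := card_eq_one.1 h5
  have hx1 : x ∈ insert y C \ B' := by rw [hx]; exact mem_singleton_self x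
  rw [mem_sdiff] at hx1
  have hxy : x ≠ y := by rintro rfl; exact hx1.2 hy'
  have hxC : x ∈ C := (mem_insert.1 hx1.1).resolve_left hxy
  refine ⟨x, hxC, fun hxI => hx1.2 (h1 (mem_insert_of_mem hxI)), ?_⟩
  have e : B' = insert y (C.erase x) := by
    ext z
    constructor
    · intro hz
      rcases mem_insert.1 (hsub hz) with h6 | h6
      · rw [h6]; exact mem_insert_self _ _
      · refine mem_insert_of_mem (mem_erase.2 ⟨?_, h6⟩)
        rintro rfl; exact hx1.2 hz
    · intro hz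
      rcases mem_insert.1 hz with h6 | h6
      · rw [h6]; exact hy'
      · obtain ⟨h7, h8⟩ := mem_erase.1 h6
        by_contra h9
        have : z ∈ insert y C \ B' := mem_sdiff.2 ⟨mem_insert_of_mem h8, h9⟩
        rw [hx, mem_singleton] at this
        exact h7 this
  rwa [← e]

omit [Fintype α] in
theorem BF.two (h : BF β) {C : Finset α} {x₁ x₂ y₁ y₂ : α}
    (hx1 : x₁ ∈ C) (hx2 : x₂ ∈ C) (hx : x₁ ≠ x₂) (hy1 : y₁ ∉ C) (hy2 : y₂ ∉ C) (hy : y₁ ≠ y₂)
    (h12 : β (insert y₂ (C.erase x₁))) (h21 : β (insert y₁ (C.erase x₂)))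
    (h22 : ¬ β (insert y₂ (C.erase x₂))) :
    β (insert y₁ (insert y₂ ((C.erase x₁).erase x₂))) := by
  have m1 : x₂ ∈ insert y₂ (C.erase x₁) := mem_insert_of_mem (mem_erase.2 ⟨hx.symm, hx2⟩)
  have hx2y1 : x₂ ≠ y₁ := by rintro rfl; exact hy1 hx2
  have hx2y2 : x₂ ≠ y₂ := by rintro rfl; exact hy2 hx2
  have hx1y2 : x₁ ≠ y₂ := by rintro rfl; exact hy2 hx1
  have m2 : x₂ ∉ insert y₁ (C.erase x₂) := by
    simp [hx2y1]
  obtain ⟨z, hz1, hz2, hz3⟩ := h.exch h12 h21 m1 m2
  rcases mem_insert.1 hz1 with h1 | h1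
  · subst h1
    have e : insert z ((insert y₂ (C.erase x₁)).erase x₂)
        = insert z (insert y₂ ((C.erase x₁).erase x₂)) := by
      rw [erase_insert_of_ne hx2y2.symm]
    rwa [e] at hz3
  · obtain ⟨h2, h3⟩ := mem_erase.1 h1
    have hz : z = x₁ := by
      by_contra h4
      exact hz2 (mem_insert_of_mem (mem_erase.2 ⟨h4, h3⟩))
    subst hz
    exfalso
    apply h22
    have e : insert z ((insert y₂ (C.erase z)).erase x₂) = insert y₂ (C.erase x₂) := by
      ext w
      simp only [mem_insert, mem_erase]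
      constructor
      · rintro (rfl | ⟨h5, (h6 | h6)⟩)
        · exact Or.inr ⟨hx, h3⟩
        · exact Or.inl h6
        · exact Or.inr ⟨h5, h6.2⟩
      · rintro (h5 | ⟨h5, h6⟩)
        · exact Or.inr ⟨by rw [h5]; exact hx2y2.symm, Or.inl h5⟩
        · by_cases h7 : w = z
          · exact Or.inl h7
          · exact Or.inr ⟨h5, Or.inr ⟨h7, h6⟩⟩
    rwa [e] at hz3

omit [Fintype α] in
open Classical in
theorem BF.hall (h : BF β) {B C : Finset α} (hB : β B) (hC : β C) :
    ∃ σ : {y // y ∈ B \ C} → α, Function.Injective σ ∧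
      ∀ y, σ y ∈ C \ B ∧ β (insert y.1 (C.erase (σ y))) := by
  set t : {y // y ∈ B \ C} → Finset α := fun y =>
    (C \ B).filter (fun x => β (insert y.1 (C.erase x))) with ht
  have key : ∀ s : Finset {y // y ∈ B \ C}, s.card ≤ (s.biUnion t).card := by
    intro s
    by_contra hcon
    push Not at hcon
    set Y' : Finset α := s.map (Function.Embedding.subtype _) with hY'
    set X' : Finset α := s.biUnion t with hX'
    have hY'B : ∀ z ∈ Y', z ∈ B ∧ z ∉ C := by
      intro z hz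
      rw [hY', mem_map] at hz
      obtain ⟨a, -, rfl⟩ := hz
      exact mem_sdiff.1 a.2
    have hX'C : ∀ z ∈ X', z ∈ C ∧ z ∉ B := by
      intro z hz
      rw [hX', mem_biUnion] at hz
      obtain ⟨a, -, ha⟩ := hz
      exact mem_sdiff.1 (mem_filter.1 ha).1
    have hIC : (C ∩ B) ∪ X' ⊆ C :=
      union_subset inter_subset_left (fun z hz => (hX'C z hz).1)
    have hJB : (C ∩ B) ∪ Y' ⊆ B :=
      union_subset inter_subset_right (fun z hz => (hY'B z hz).1)
    have c1 : ((C ∩ B) ∪ X').card = (C ∩ B).card + X'.card := by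
      apply card_union_of_disjoint
      rw [disjoint_left]
      intro z hz hz'
      exact (hX'C z hz').2 (mem_inter.1 hz).2
    have c2 : ((C ∩ B) ∪ Y').card = (C ∩ B).card + Y'.card := by
      apply card_union_of_disjoint
      rw [disjoint_left]
      intro z hz hz'
      exact (hY'B z hz').2 (mem_inter.1 hz).1
    have c3 : Y'.card = s.card := by rw [hY', card_map]
    obtain ⟨e, he1, he2, D, hD, hDs⟩ := h.aug hC hIC hB hJB (by omega)
    have heY : e ∈ Y' := by
      rcases mem_union.1 he1 with h1 | h1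
      · exact absurd (mem_union_left _ h1) he2
      · exact h1
    obtain ⟨x, hx1, hx2, hx3⟩ := h.extend hC (hY'B e heY).2 hIC hD hDs
    have hxB : x ∉ B := fun hxB => hx2 (mem_union_left _ (mem_inter.2 ⟨hx1, hxB⟩))
    apply hx2
    apply mem_union_right
    rw [hY', mem_map] at heY
    obtain ⟨a, ha, rfl⟩ := heY
    rw [hX', mem_biUnion]
    exact ⟨a, ha, mem_filter.2 ⟨mem_sdiff.2 ⟨hx1, hxB⟩, hx3⟩⟩
  obtain ⟨σ, h1, h2⟩ := (all_card_le_biUnion_card_iff_exists_injective t).1 key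
  exact ⟨σ, h1, fun y => ⟨(mem_filter.1 (h2 y)).1, (mem_filter.1 (h2 y)).2⟩⟩

end Vale.P317
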