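import Vale.Agent.P317.Core

/-! # P317: the step, the distance bound and the count -/

namespace Vale.P317

open Finset

variable {α : Type*} [Fintype α] [DecidableEq α]
variable {β β₁ β₂ : Finset α → Prop}

open Classical in
omit [Fintype α] in
theorem step (h1 : BF β₁) (h2 : BF β₂) {k : ℕ}
    (hbad : ∀ C, β₂ C → ∀ y, y ∉ C →
      (C.filter (fun x => ¬ β₂ (insert y (C.erase x)))).card ≤ k)
    {B C : Finset α} (hB : β₁ B) (hC1 : β₁ C) (hC2 : β₂ C) (hd : 2 * k < (B \ C).card) :
    ∃ C', β₁ C' ∧ β₂ C' ∧ (B \ C').card < (B \ C).card := by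
  by_cases hcase : ∃ y ∈ B \ C, ∃ x ∈ C \ B, β₁ (insert y (C.erase x)) ∧
      β₂ (insert y (C.erase x))
  · obtain ⟨y, hy, x, hx, hb1, hb2⟩ := hcase
    rw [mem_sdiff] at hy hx
    refine ⟨_, hb1, hb2, card_lt_card ?_⟩
    rw [ssubset_iff_of_subset]
    · exact ⟨y, mem_sdiff.2 hy, fun h => (mem_sdiff.1 h).2 (mem_insert_self _ _)⟩
    · intro z hz
      obtain ⟨hz1, hz2⟩ := mem_sdiff.1 hz
      refine mem_sdiff.2 ⟨hz1, fun hz3 => hz2 (mem_insert_of_mem (mem_erase.2 ⟨?_, hz3⟩))⟩
      rintro rfl; exact hx.2 hz1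
  · push Not at hcase
    obtain ⟨σ, σinj, hσ⟩ := h1.hall hB hC1
    have σC : ∀ y, σ y ∈ C := fun y => (mem_sdiff.1 (hσ y).1).1
    have σB : ∀ y, σ y ∉ B := fun y => (mem_sdiff.1 (hσ y).1).2
    have yC : ∀ y : {y // y ∈ B \ C}, y.1 ∉ C := fun y => (mem_sdiff.1 y.2).2
    set r : {y // y ∈ B \ C} → {y // y ∈ B \ C} → Prop := fun y y' => ¬ β₂ (insert y.1 (C.erase (σ y'))) with hr
    have hout : ∀ y, (univ.filter (fun y' => r y y')).card ≤ k := by
      intro y
      refine le_trans ?_ (hbad C hC2 y.1 (yC y))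
      refine card_le_card_of_injOn σ ?_ (σinj.injOn)
      intro y' hy'
      rw [Finset.mem_coe, mem_filter] at hy'
      rw [Finset.mem_coe, mem_filter]
      exact ⟨σC y', hy'.2⟩
    have hsum : ∑ y : {y // y ∈ B \ C}, (univ.filter (fun y' => r y y')).card
        = ∑ y' : {y // y ∈ B \ C}, (univ.filter (fun y => r y y')).card := by
      simp_rw [card_filter]
      exact sum_comm
    have hcard : Fintype.card {y // y ∈ B \ C} = (B \ C).card := by
      rw [Fintype.card_coe]
    obtain ⟨a, ha⟩ : ∃ a : {y // y ∈ B \ C}, (univ.filter (fun y => r y a)).card ≤ k := by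
      by_contra hcon
      push Not at hcon
      have e1 : ∑ y : {y // y ∈ B \ C}, (univ.filter (fun y' => r y y')).card ≤ Fintype.card {y // y ∈ B \ C} * k := by
        calc _ ≤ ∑ _y : {y // y ∈ B \ C}, k := sum_le_sum (fun y _ => hout y)
          _ = Fintype.card {y // y ∈ B \ C} * k := by simp
      have e2 : Fintype.card {y // y ∈ B \ C} * (k + 1) ≤ ∑ y' : {y // y ∈ B \ C}, (univ.filter (fun y => r y y')).card := by
        calc Fintype.card {y // y ∈ B \ C} * (k + 1) = ∑ _y : {y // y ∈ B \ C}, (k + 1) := by simp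
          _ ≤ _ := sum_le_sum (fun y _ => hcon y)
      rw [← hsum] at e2
      have e3 : 0 < Fintype.card {y // y ∈ B \ C} := by rw [hcard]; omega
      have e4 := e2.trans e1
      have := Nat.le_of_mul_le_mul_left e4 e3
      omega
    obtain ⟨b, hb⟩ : ∃ b : {y // y ∈ B \ C}, b ∉ univ.filter (fun y => r y a) ∪ univ.filter (fun y' => r a y') := by
      by_contra hcon
      push Not at hcon
      have e1 : (univ : Finset {y // y ∈ B \ C}) ⊆ univ.filter (fun y => r y a) ∪ univ.filter (fun y' => r a y') :=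
        fun b _ => hcon b
      have e2 := card_le_card e1
      have e3 := card_union_le (univ.filter (fun y => r y a)) (univ.filter (fun y' => r a y'))
      have e4 := hout a
      rw [card_univ, hcard] at e2
      omega
    rw [mem_union, mem_filter, mem_filter] at hb
    push Not at hb
    have hba : β₂ (insert b.1 (C.erase (σ a))) := by
      have := hb.1 (mem_univ _)
      rw [hr] at this
      exact not_not.1 this
    have hab : β₂ (insert a.1 (C.erase (σ b))) := by
      have := hb.2 (mem_univ _)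
      rw [hr] at this
      exact not_not.1 this
    have n2 : ∀ y : {y // y ∈ B \ C}, ¬ β₂ (insert y.1 (C.erase (σ y))) := fun y =>
      hcase y.1 y.2 (σ y) (hσ y).1 (hσ y).2
    have hne : a ≠ b := by
      rintro rfl
      exact n2 a hab
    have hσne : σ a ≠ σ b := fun h => hne (σinj h)
    have hvne : a.1 ≠ b.1 := fun h => hne (Subtype.ext h)
    have g2 : β₂ (insert a.1 (insert b.1 ((C.erase (σ a)).erase (σ b)))) :=
      h2.two (σC a) (σC b) hσne (yC a) (yC b) hvne hba hab (n2 b)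
    have n1 : ¬ β₁ (insert a.1 (C.erase (σ b))) := fun h =>
      hcase a.1 a.2 (σ b) (hσ b).1 h hab
    have g1 : β₁ (insert b.1 (insert a.1 ((C.erase (σ a)).erase (σ b)))) :=
      h1.two (σC a) (σC b) hσne (yC b) (yC a) hvne.symm (hσ a).2 (hσ b).2 n1
    rw [insert_comm] at g1
    refine ⟨_, g1, g2, card_lt_card ?_⟩
    rw [ssubset_iff_of_subset]
    · exact ⟨a.1, a.2, fun h => (mem_sdiff.1 h).2 (mem_insert_self _ _)⟩
    · intro z hz
      obtain ⟨hz1, hz2⟩ := mem_sdiff.1 hz
      refine mem_sdiff.2 ⟨hz1, fun hz3 => hz2 (mem_insert_of_mem (mem_insert_of_mem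
        (mem_erase.2 ⟨?_, mem_erase.2 ⟨?_, hz3⟩⟩)))⟩
      · rintro rfl; exact σB b hz1
      · rintro rfl; exact σB a hz1

open Classical in
omit [Fintype α] in
theorem near (h1 : BF β₁) (h2 : BF β₂) {k : ℕ}
    (hbad : ∀ C, β₂ C → ∀ y, y ∉ C →
      (C.filter (fun x => ¬ β₂ (insert y (C.erase x)))).card ≤ k)
    {B : Finset α} (hB : β₁ B) : ∀ (c : ℕ) (C : Finset α), β₁ C → β₂ C → (B \ C).card = c →
      ∃ C', β₁ C' ∧ β₂ C' ∧ (B \ C').card ≤ 2 * k := by
  intro c
  induction c using Nat.strong_induction_on with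
  | _ c ih =>
    intro C hC1 hC2 hc
    by_cases hd : (B \ C).card ≤ 2 * k
    · exact ⟨C, hC1, hC2, hd⟩
    · obtain ⟨C', e1, e2, e3⟩ := step h1 h2 hbad hB hC1 hC2 (by omega)
      exact ih _ (by omega) C' e1 e2 rfl

/-- decode a tuple of optional elements -/
def dec {m : ℕ} (p : Fin m → Option α) : Finset α := univ.filter (fun a => ∃ i, p i = some a)

theorem exists_dec {m : ℕ} (S : Finset α) (hS : S.card ≤ m) :
    ∃ p : Fin m → Option α, dec p = S := by
  classical
  refine ⟨fun i => if h : i.1 < S.card then some (S.equivFin.symm ⟨i.1, h⟩).1 else none, ?_⟩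
  ext a
  simp only [dec, mem_filter, mem_univ, true_and]
  constructor
  · rintro ⟨i, hi⟩
    split_ifs at hi with h
    rw [Option.some.injEq] at hi
    rw [← hi]
    exact (S.equivFin.symm ⟨i.1, h⟩).2
  · intro ha
    refine ⟨⟨(S.equivFin ⟨a, ha⟩).1, lt_of_lt_of_le (S.equivFin ⟨a, ha⟩).2 hS⟩, ?_⟩
    simp

open Classical in
theorem count (h1 : BF β₁) (h2 : BF β₂) {k : ℕ}
    (hbad : ∀ C, β₂ C → ∀ y, y ∉ C →
      (C.filter (fun x => ¬ β₂ (insert y (C.erase x)))).card ≤ k)
    (hne : ∃ C, β₁ C ∧ β₂ C) :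
    Nat.card {B : Finset α // β₁ B} ≤
      (Fintype.card α + 1) ^ (4 * k) * Nat.card {C : Finset α // β₁ C ∧ β₂ C} := by
  obtain ⟨C₀, hC1, hC2⟩ := hne
  have key : ∀ B : {B : Finset α // β₁ B},
      ∃ φ : {C : Finset α // β₁ C ∧ β₂ C} ×
        ((Fin (2 * k) → Option α) × (Fin (2 * k) → Option α)),
        (φ.1.1 \ dec φ.2.1) ∪ dec φ.2.2 = B.1 := by
    rintro ⟨B, hB⟩
    obtain ⟨C, e1, e2, e3⟩ := near h1 h2 hbad hB _ C₀ hC1 hC2 rfl
    have e4 : (C \ B).card ≤ 2 * k := by
      have e5 : (C \ B).card = (B \ C).card := by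
        have := h1.card_eq hB e1
        have a1 := card_sdiff_add_card_inter C B
        have a2 := card_sdiff_add_card_inter B C
        rw [inter_comm] at a2
        omega
      omega
    obtain ⟨p, hp⟩ := exists_dec (C \ B) e4
    obtain ⟨q, hq⟩ := exists_dec (B \ C) e3
    refine ⟨(⟨C, e1, e2⟩, (p, q)), ?_⟩
    simp only [hp, hq]
    ext z
    simp only [mem_union, mem_sdiff]
    tauto
  choose Φ hΦ using key
  have hinj : Function.Injective Φ := by
    intro a b hab
    apply Subtype.ext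
    rw [← hΦ a, ← hΦ b, hab]
  have h3 := Nat.card_le_card_of_injective Φ hinj
  refine h3.trans (le_of_eq ?_)
  rw [Nat.card_prod, Nat.card_prod, Nat.card_eq_fintype_card (α := Fin (2 * k) → Option α),
    Fintype.card_fun, Fintype.card_option, Fintype.card_fin, mul_comm, ← pow_add]
  congr 2
  ring

end Vale.P317
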