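import Vale.Agent.P317.Count

/-! # P317: translation to matroids -/

namespace Vale.P317

open Finset

variable {α : Type} [Fintype α]

theorem bf_of [DecidableEq α] (M : Matroid α) :
    BF (fun B : Finset α => M.IsBase (B : Set α)) where
  card_eq := by
    intro B C hB hC
    have := hB.ncard_eq_ncard_of_isBase hC
    rwa [Set.ncard_coe_finset, Set.ncard_coe_finset] at this
  exch := by
    intro B C x hB hC hx1 hx2
    obtain ⟨y, ⟨hy1, hy2⟩, h⟩ := hB.exchange_mem hC (e := x) (by exact_mod_cast hx1)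
      (by exact_mod_cast hx2)
    refine ⟨y, by exact_mod_cast hy1, by exact_mod_cast hy2, ?_⟩
    rw [coe_insert, coe_erase]
    exact h
  ext := by
    intro I B C hB hIB hC
    have hI : M.Indep (I : Set α) := hB.indep.subset (coe_subset.2 hIB)
    obtain ⟨B', hB', h1, h2⟩ := hI.exists_isBase_subset_union_isBase hC
    refine ⟨(Set.toFinite B').toFinset, ?_, ?_, ?_⟩
    · rw [Set.Finite.coe_toFinset]; exact hB'
    · intro z hz
      rw [Set.Finite.mem_toFinset]
      exact h1 (mem_coe.2 hz)
    · intro z hz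
      rw [Set.Finite.mem_toFinset] at hz
      rcases h2 hz with h | h
      · exact mem_union_left _ (mem_coe.1 h)
      · exact mem_union_right _ (mem_coe.1 h)
  aug := by
    intro I J B C hB hI hC hJ hIJ
    have hI' : M.Indep (I : Set α) := hB.indep.subset (coe_subset.2 hI)
    have hJ' : M.Indep (J : Set α) := hC.indep.subset (coe_subset.2 hJ)
    obtain ⟨e, he1, he2, he3⟩ := hI'.augment_finset hJ' hIJ
    obtain ⟨D, hD, hD2⟩ := he3.exists_isBase_superset
    refine ⟨e, he1, he2, (Set.toFinite D).toFinset, ?_, ?_⟩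
    · rw [Set.Finite.coe_toFinset]; exact hD
    · intro z hz
      rw [Set.Finite.mem_toFinset]
      apply hD2
      rcases mem_insert.1 hz with h | h
      · exact Set.mem_insert_iff.2 (Or.inl h)
      · exact Set.mem_insert_iff.2 (Or.inr (mem_coe.2 h))

open Classical in
theorem bad_le (M : Matroid α) {k : ℕ}
    (hk : ∀ I : Set α, I.encard + k ≤ M.eRank → M.Indep I) (C : Finset α)
    (hC : M.IsBase (C : Set α)) (y : α) (hy : y ∉ C) :
    (C.filter (fun x => ¬ M.IsBase ((insert y (C.erase x) : Finset α) : Set α))).card ≤ k := by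
  by_contra hcon
  push Not at hcon
  set I := C.filter (fun x => M.IsBase ((insert y (C.erase x) : Finset α) : Set α)) with hI
  have hsum : I.card + (C.filter
      (fun x => ¬ M.IsBase ((insert y (C.erase x) : Finset α) : Set α))).card = C.card :=
    card_filter_add_card_filter_not _
  have hle : (insert y I).card + k ≤ C.card := by
    have := card_insert_le y I
    omega
  have hind : M.Indep ((insert y I : Finset α) : Set α) := by
    apply hk
    rw [← hC.encard_eq_eRank, Set.encard_coe_eq_coe_finsetCard, Set.encard_coe_eq_coe_finsetCard]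
    exact_mod_cast hle
  obtain ⟨D, hD, hD2⟩ := hind.exists_isBase_superset
  obtain ⟨x, hx1, hx2, hx3⟩ := (bf_of M).extend (B := (Set.toFinite D).toFinset) hC hy
    (filter_subset _ _ : I ⊆ C) (by
      simp only [Set.Finite.coe_toFinset]; exact hD) (by
      intro z hz
      rw [Set.Finite.mem_toFinset]
      exact hD2 (mem_coe.2 hz))
  exact hx2 (mem_filter.2 ⟨hx1, hx3⟩)

theorem ncard_bases (P : Set α → Prop) :
    {B : Set α | P B}.ncard = Nat.card {B : Finset α // P (B : Set α)} := by
  rw [← Nat.card_coe_set_eq]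
  exact (Nat.card_congr (Equiv.subtypeEquiv Fintype.finsetEquivSet (fun B => by simp))).symm

theorem main {k : ℕ} (M₁ M₂ : Matroid α)
    (hk : ∀ I : Set α, I.encard + k ≤ M₂.eRank → M₂.Indep I)
    (hne : {B : Set α | M₁.IsBase B ∧ M₂.IsBase B}.ncard ≠ 0) :
    {B : Set α | M₁.IsBase B}.ncard ≤
      (Fintype.card α + 1) ^ (4 * k) * {B : Set α | M₁.IsBase B ∧ M₂.IsBase B}.ncard := by
  classical
  rw [ncard_bases (fun B => M₁.IsBase B), ncard_bases (fun B => M₁.IsBase B ∧ M₂.IsBase B)]
  apply count (bf_of M₁) (bf_of M₂) (fun C hC y hy => bad_le M₂ hk C hC y hy)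
  rw [ncard_bases (fun B => M₁.IsBase B ∧ M₂.IsBase B), Nat.card_ne_zero] at hne
  obtain ⟨⟨C, hC⟩⟩ := hne.1
  exact ⟨C, hC⟩

theorem dual_ncard (M : Matroid α) (hE : M.E = Set.univ) :
    {B : Set α | M✶.IsBase B}.ncard = {B : Set α | M.IsBase B}.ncard := by
  have : {B : Set α | M✶.IsBase B} = compl '' {B : Set α | M.IsBase B} := by
    ext B
    simp only [Set.mem_setOf_eq, Set.mem_image]
    rw [Matroid.dual_isBase_iff (by rw [hE]; exact Set.subset_univ B), hE, ← Set.compl_eq_univ_sdiff]
    constructor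
    · intro h
      exact ⟨Bᶜ, h, compl_compl B⟩
    · rintro ⟨D, hD, rfl⟩
      rwa [compl_compl]
  rw [this, Set.ncard_image_of_injective _ compl_injective]

theorem dual_ncard₂ (M₁ M₂ : Matroid α) (hE₁ : M₁.E = Set.univ) (hE₂ : M₂.E = Set.univ) :
    {B : Set α | M₁✶.IsBase B ∧ M₂✶.IsBase B}.ncard
      = {B : Set α | M₁.IsBase B ∧ M₂.IsBase B}.ncard := by
  have : {B : Set α | M₁✶.IsBase B ∧ M₂✶.IsBase B}
      = compl '' {B : Set α | M₁.IsBase B ∧ M₂.IsBase B} := by
    ext B
    simp only [Set.mem_setOf_eq, Set.mem_image]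
    rw [Matroid.dual_isBase_iff (by rw [hE₁]; exact Set.subset_univ B), hE₁,
      Matroid.dual_isBase_iff (by rw [hE₂]; exact Set.subset_univ B), hE₂,
      ← Set.compl_eq_univ_sdiff]
    constructor
    · intro h
      exact ⟨Bᶜ, h, compl_compl B⟩
    · rintro ⟨D, hD, rfl⟩
      rwa [compl_compl]
  rw [this, Set.ncard_image_of_injective _ compl_injective]

end Vale.P317
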